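import Crest.Agent.R162.Defs

/-!
# Row 162, block W: laws on path space through characteristic functionals

`Ch κ μ`: all finite linear combinations of evaluations have the characteristic function of `√κ B`.  This determines
`μ` (`Ch.unique`); scaling, the Markov property at a deterministic time and the bridge decomposition behind the
Cameron-Martin formula are identities between quadratic forms.
-/

set_option autoImplicit false

open scoped ENNReal NNReal Topology
open Set Filter MeasureTheory Metric ProbabilityTheory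

noncomputable section
namespace Crest.Agent.R162.W

theorem continuous_spl : Continuous fun p : ℝ × Path × Path => spl p.1 p.2.1 p.2.2 :=
  ContinuousMap.continuous_of_continuous_uncurry _ (by
    change Continuous fun q : (ℝ × Path × Path) × ℝ =>
      q.1.2.1 (min q.2 q.1.1) + (q.1.2.2 (max (q.2 - q.1.1) 0) - q.1.2.2 0)
    fun_prop)

theorem continuous_scl (c : ℝ) : Continuous (scl c) :=
  ContinuousMap.continuous_of_continuous_uncurry _ (by
    change Continuous fun q : Path × ℝ => q.1 (c ^ 2 * q.2) / c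
    fun_prop)

theorem agr_spl (t : ℝ) (ω ω' : Path) : Agr t ω (spl t ω ω') := fun s hs => by
  change ω (min s t) + (ω' (max (s - t) 0) - ω' 0) = ω s
  rw [min_eq_left hs, max_eq_right (sub_nonpos.2 hs), sub_self, add_zero]

theorem emb_rat : MeasurableEmbedding fun (ω : Path) (q : ℚ) => ω q :=
  Continuous.measurableEmbedding (by fun_prop) fun ω ω' h => ContinuousMap.ext fun t =>
    congrFun (Rat.denseRange_cast.equalizer ω.continuous ω'.continuous h) t

theorem measurable_path {α : Type*} [MeasurableSpace α] {f : α → Path} (h : ∀ t, Measurable fun a => f a t) :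
    Measurable f :=
  emb_rat.measurable_comp_iff.1 (measurable_pi_lambda _ fun q => h q)

theorem aemeasurable_path {α : Type*} [MeasurableSpace α] {m : Measure α} {f : α → Path}
    (h : ∀ t, AEMeasurable (fun a => f a t) m) : AEMeasurable f m :=
  emb_rat.aemeasurable_comp_iff.1 (aemeasurable_pi_lambda _ fun q => h q)

/-- a finite linear combination of values -/
def lin (a : ℝ →₀ ℝ) (f : ℝ → ℝ) : ℝ := Finsupp.linearCombination ℝ f a

theorem lin_eq (a : ℝ →₀ ℝ) (f : ℝ → ℝ) : lin a f = ∑ t ∈ a.support, a t * f t := rfl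

theorem lin_add (a : ℝ →₀ ℝ) (f g : ℝ → ℝ) : lin a (fun t => f t + g t) = lin a f + lin a g := by
  simp only [lin_eq, mul_add, Finset.sum_add_distrib]

theorem lin_sub (a : ℝ →₀ ℝ) (f g : ℝ → ℝ) : lin a (fun t => f t - g t) = lin a f - lin a g := by
  simp only [lin_eq, mul_sub, Finset.sum_sub_distrib]

theorem lin_mul (a : ℝ →₀ ℝ) (c : ℝ) (f : ℝ → ℝ) : lin a (fun t => c * f t) = c * lin a f := by
  simp only [lin_eq, Finset.mul_sum, mul_left_comm]

theorem sub_lin (a b : ℝ →₀ ℝ) (f : ℝ → ℝ) : lin (a - b) f = lin a f - lin b f := map_sub _ _ _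

theorem smul_lin (c : ℝ) (a : ℝ →₀ ℝ) (f : ℝ → ℝ) : lin (c • a) f = c * lin a f := map_smul _ _ _

theorem single_lin (t c : ℝ) (f : ℝ → ℝ) : lin (Finsupp.single t c) f = c * f t :=
  Finsupp.linearCombination_single _ _ _

theorem map_lin (φ : ℝ → ℝ) (a : ℝ →₀ ℝ) (f : ℝ → ℝ) :
    lin (Finsupp.mapDomain φ a) f = lin a fun t => f (φ t) :=
  Finsupp.linearCombination_mapDomain _ _ _

theorem continuous_lin (a : ℝ →₀ ℝ) : Continuous fun ω : Path => lin a ω := by
  simp only [lin_eq]; fun_prop

/-- the covariance kernel -/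
def KK (s t : ℝ) : ℝ := min (max s 0) (max t 0)

/-- the quadratic form -/
def QQ (a : ℝ →₀ ℝ) : ℝ := lin a fun s => lin a fun t => KK s t

/-- the integrand of the characteristic functional -/
def ee (a : ℝ →₀ ℝ) (ω : Path) : ℂ := Complex.exp ((lin a ω : ℝ) * Complex.I)

theorem continuous_ee (a : ℝ →₀ ℝ) : Continuous (ee a) := by
  have := continuous_lin a
  unfold ee; fun_prop

def Ch (κ : ℝ) (μ : Measure Path) : Prop := ∀ a, ∫ ω, ee a ω ∂μ = Complex.exp ((-(κ * QQ a / 2) : ℝ))

variable {κ : ℝ} {μ ν : Measure Path}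

theorem Ch.unique [IsFiniteMeasure μ] [IsFiniteMeasure ν] (hμ : Ch κ μ) (hν : Ch κ ν) : μ = ν := by
  let _ : PseudoMetricSpace Path := UniformSpace.pseudoMetricSpace Path
  let _ : TopologicalSpace (ℝ →₀ ℝ) := ⊥
  have : DiscreteTopology (ℝ →₀ ℝ) := ⟨rfl⟩
  let L : Path →ₗ[ℝ] (ℝ →₀ ℝ) →ₗ[ℝ] ℝ :=
    { toFun := fun ω => Finsupp.linearCombination ℝ (ω : ℝ → ℝ)
      map_add' := fun ω ω' => LinearMap.ext fun a => lin_add a ω ω'
      map_smul' := fun c ω => LinearMap.ext fun a => lin_mul a c ω }
  have hL : Continuous fun p : Path × (ℝ →₀ ℝ) => L p.1 p.2 :=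
    continuous_prod_of_discrete_right.2 fun a => continuous_lin a
  refine ext_of_integral_char_eq (L := L) Real.continuous_probChar Real.probChar_ne_one
    (fun ω h0 h => h0 (ContinuousMap.ext fun t => ?_)) hL fun a => ?_
  · have := LinearMap.congr_fun h (Finsupp.single t 1)
    exact ((one_mul _).symm.trans (single_lin t 1 ω).symm).trans this
  · exact (hμ a).trans (hν a).symm

theorem Ch.map_of {α : Type*} [MeasurableSpace α] {m : Measure α} {Φ : α → Path} (hΦ : AEMeasurable Φ m)
    (h : ∀ a, ∫ x, ee a (Φ x) ∂m = Complex.exp ((-(κ * QQ a / 2) : ℝ))) : Ch κ (m.map Φ) := fun a => by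
  rw [integral_map hΦ (continuous_ee a).aestronglyMeasurable, h]

theorem Ch.law [IsProbabilityMeasure μ] (hκ : 0 ≤ κ) (hμ : Ch κ μ) {h : ℝ} (h0 : 0 ≤ h) :
    μ.map (fun ω : Path => ω h) = gaussianReal 0 (κ * h).toNNReal := by
  have hm : Measurable fun ω : Path => ω h := (by fun_prop : Continuous _).measurable
  refine Measure.ext_of_charFun (funext fun s => ?_)
  have := hμ (Finsupp.single h s)
  simp only [ee, QQ, single_lin, KK, min_self, max_eq_left h0] at this
  rw [charFun_apply_real, integral_map hm.aemeasurable (by fun_prop), charFun_gaussianReal,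
    Real.coe_toNNReal _ (mul_nonneg hκ h0)]
  push_cast at this ⊢
  rw [this]
  congr 1
  ring

theorem Ch.scale [IsProbabilityMeasure μ] (hμ : Ch κ μ) {c : ℝ} (hc : 0 < c) : MeasurePreserving (scl c) μ μ := by
  have hm := (continuous_scl c).measurable
  refine ⟨hm, Ch.unique (Ch.map_of hm.aemeasurable fun a => ?_) hμ⟩
  have e1 : ∀ ω : Path, ee a (scl c ω) = ee (c⁻¹ • Finsupp.mapDomain (fun s => c ^ 2 * s) a) ω := fun ω => by
    rw [ee, ee, smul_lin, map_lin, ← lin_mul]
    congr 4
    funext s
    exact div_eq_inv_mul _ _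
  have e2 : QQ (c⁻¹ • Finsupp.mapDomain (fun s => c ^ 2 * s) a) = QQ a := by
    have : ∀ s t, KK (c ^ 2 * s) (c ^ 2 * t) = c ^ 2 * KK s t := fun s t => by
      rw [KK, KK, mul_min_of_nonneg _ _ (sq_nonneg c), mul_max_of_nonneg _ _ (sq_nonneg c),
        mul_max_of_nonneg _ _ (sq_nonneg c), mul_zero]
    simp only [QQ, smul_lin, map_lin, this, lin_mul]
    field_simp
  simp only [e1]
  rw [hμ, e2]

theorem Ch.markov [IsProbabilityMeasure μ] (hμ : Ch κ μ) (h0 : ∀ᵐ ω ∂μ, ω 0 = 0) {t : ℝ} (ht : 0 ≤ t) :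
    MeasurePreserving (fun p : Path × Path => spl t p.1 p.2) (μ.prod μ) μ := by
  have hm : Measurable fun p : Path × Path => spl t p.1 p.2 :=
    (continuous_spl.comp (continuous_const.prodMk continuous_id)).measurable
  have := Measure.isProbabilityMeasure_map (μ := μ.prod μ) hm.aemeasurable
  refine ⟨hm, Ch.unique (Ch.map_of hm.aemeasurable fun a => ?_) hμ⟩
  have e1 : ∀ᵐ p : Path × Path ∂μ.prod μ, ee a (spl t p.1 p.2) =
      ee (Finsupp.mapDomain (fun s => min s t) a) p.1 * ee (Finsupp.mapDomain (fun s => max (s - t) 0) a) p.2 := by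
    filter_upwards [Measure.quasiMeasurePreserving_snd.ae h0] with p hp
    rw [ee, ee, ee, ← Complex.exp_add, ← add_mul, ← Complex.ofReal_add, map_lin, map_lin, ← lin_add]
    congr 4
    funext s
    change p.1 (min s t) + (p.2 (max (s - t) 0) - p.2 0) = _
    rw [hp, sub_zero]
  have e2 : QQ (Finsupp.mapDomain (fun s => min s t) a) + QQ (Finsupp.mapDomain (fun s => max (s - t) 0) a) =
      QQ a := by
    simp only [QQ, map_lin, ← lin_add]
    congr 1
    funext s
    congr 1
    funext u
    simp only [KK, min_def, max_def]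
    split_ifs <;> linarith
  rw [integral_congr_ae e1, integral_prod_mul, hμ, hμ, ← Complex.exp_add, ← Complex.ofReal_add, ← e2]
  congr 2
  ring

theorem gauss_shift {v : ℝ≥0} (hv : v ≠ 0) (y : ℝ) {G : ℝ → ℝ≥0∞} (hG : Measurable G) :
    ∫⁻ x, G (x + y) ∂gaussianReal 0 v =
      ∫⁻ x, G x * ENNReal.ofReal (Real.exp (y * x / v - y ^ 2 / (2 * v))) ∂gaussianReal 0 v := by
  have hv' : (v : ℝ) ≠ 0 := NNReal.coe_ne_zero.2 hv
  rw [← lintegral_map hG (measurable_add_const y), gaussianReal_map_add_const, zero_add,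
    gaussianReal_of_var_ne_zero _ hv, gaussianReal_of_var_ne_zero _ hv,
    lintegral_withDensity_eq_lintegral_mul _ (measurable_gaussianPDF _ _) hG,
    lintegral_withDensity_eq_lintegral_mul _ (measurable_gaussianPDF _ _) (by fun_prop)]
  refine lintegral_congr fun x => ?_
  simp only [Pi.mul_apply, gaussianPDF, gaussianPDFReal]
  rw [mul_comm (G x), ← mul_assoc, ← ENNReal.ofReal_mul (by positivity), mul_assoc (_⁻¹), ← Real.exp_add]
  congr 4
  field_simp
  ring

/-- the path with the bridge of `ω` on `[a, b]` and increment `x` -/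
def brg (a b : ℝ) (p : Path × ℝ) : Path := p.1 + ((p.2 - (p.1 b - p.1 a)) / (b - a)) • ramp a b

theorem continuous_brg (a b : ℝ) : Continuous (brg a b) := by
  unfold brg; fun_prop

theorem ramp_left {a b : ℝ} (h : a ≤ b) : ramp a b a = 0 := by
  change min (max a a) b - a = 0
  rw [max_self, min_eq_left h, sub_self]

theorem ramp_right {a b : ℝ} (h : a ≤ b) : ramp a b b = b - a := by
  change min (max b a) b - a = _
  rw [max_eq_left h, min_self]

theorem Ch.bridge [IsProbabilityMeasure μ] (hκ : 0 ≤ κ) (hμ : Ch κ μ) {a b : ℝ} (ha : 0 ≤ a) (hab : a < b) :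
    MeasurePreserving (brg a b) (μ.prod (gaussianReal 0 (κ * (b - a)).toNNReal)) μ := by
  have hm := (continuous_brg a b).measurable
  have h0 : 0 < b - a := sub_pos.2 hab
  have := Measure.isProbabilityMeasure_map (μ := μ.prod (gaussianReal 0 (κ * (b - a)).toNNReal)) hm.aemeasurable
  refine ⟨hm, Ch.unique (Ch.map_of hm.aemeasurable fun u => ?_) hμ⟩
  obtain ⟨β, hβ⟩ : ∃ β, lin u (ramp a b) = β * (b - a) := ⟨lin u (ramp a b) / (b - a), by field_simp⟩
  have e1 : ∀ p : Path × ℝ, ee u (brg a b p) =
      ee (u - β • (Finsupp.single b 1 - Finsupp.single a 1)) p.1 * Complex.exp (β * p.2 * Complex.I) := fun p => by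
    have : lin u (brg a b p) = lin u p.1 + (p.2 - (p.1 b - p.1 a)) / (b - a) * lin u (ramp a b) := by
      rw [← lin_mul, ← lin_add]; rfl
    rw [ee, ee, ← Complex.exp_add, ← add_mul, ← Complex.ofReal_mul, ← Complex.ofReal_add, this, hβ,
      sub_lin, smul_lin, sub_lin, single_lin, single_lin]
    congr 3
    field_simp
    ring
  have k1 : ∀ s, KK s b - KK s a = ramp a b s := fun s => by
    change _ = min (max s a) b - a
    simp only [KK, min_def, max_def]
    split_ifs <;> linarith
  have k2 : lin u (fun t => KK b t) - lin u (fun t => KK a t) = β * (b - a) := by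
    rw [← hβ, ← lin_sub]
    congr 1
    funext t
    rw [← k1, KK, KK, KK, KK, min_comm, min_comm (max a 0)]
  have e2 : QQ (u - β • (Finsupp.single b 1 - Finsupp.single a 1)) = QQ u - β ^ 2 * (b - a) := by
    simp only [QQ, sub_lin, smul_lin, single_lin, one_mul, k1, lin_sub, lin_mul]
    rw [ramp_left hab.le, ramp_right hab.le, show (lin u fun s => ramp a b s) = β * (b - a) from hβ]
    linear_combination (-β) * k2
  simp only [e1]
  rw [integral_prod_mul (f := ee _) (g := fun x : ℝ => Complex.exp (β * x * Complex.I)), hμ, e2,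
    ← charFun_apply_real, charFun_gaussianReal, Real.coe_toNNReal _ (mul_nonneg hκ h0.le), ← Complex.exp_add]
  congr 1
  push_cast
  ring

theorem Ch.cm [IsProbabilityMeasure μ] (hκ : 0 < κ) (hμ : Ch κ μ) (a b c : ℝ) (F : Path → ℝ≥0∞) (ha : 0 ≤ a)
    (hab : a ≤ b) (hF : Measurable F) :
    ∫⁻ ω, F (ω + c • ramp a b) ∂μ = ∫⁻ ω, F ω *
      ENNReal.ofReal (Real.exp (c * (ω b - ω a) / κ - c ^ 2 * (b - a) / (2 * κ))) ∂μ := by
  rcases hab.eq_or_lt with rfl | hab
  · have : ramp a a = 0 := ContinuousMap.ext fun s => by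
      change min (max s a) a - a = 0
      rw [min_eq_right (le_max_right _ _), sub_self]
    simp [this]
  have h0 : 0 < b - a := sub_pos.2 hab
  have hp := hμ.bridge hκ.le ha hab
  have hb := (continuous_brg a b).measurable
  have m1 : Measurable fun ω : Path => F (ω + c • ramp a b) := hF.comp (by fun_prop : Continuous _).measurable
  have m2 : Measurable fun ω : Path => F ω *
      ENNReal.ofReal (Real.exp (c * (ω b - ω a) / κ - c ^ 2 * (b - a) / (2 * κ))) :=
    hF.mul (Measurable.ennreal_ofReal (by fun_prop : Continuous _).measurable)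
  rw [← hp.lintegral_comp m1, ← hp.lintegral_comp m2]
  refine (lintegral_prod _ (m1.comp hb).aemeasurable).trans
    (Eq.trans (lintegral_congr fun ω => ?_) (lintegral_prod _ (m2.comp hb).aemeasurable).symm)
  have e1 : ∀ x, brg a b (ω, x) + c • ramp a b = brg a b (ω, x + c * (b - a)) := fun x => by
    rw [brg, brg, add_assoc, ← add_smul]
    congr 2
    field_simp
    ring
  have e2 : ∀ x, brg a b (ω, x) b - brg a b (ω, x) a = x := fun x => by
    simp only [brg, ContinuousMap.add_apply, ContinuousMap.smul_apply, ramp_left hab.le, ramp_right hab.le,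
      smul_eq_mul]
    field_simp
    ring
  simp only [Function.comp, e1, e2]
  rw [gauss_shift (G := fun x => F (brg a b (ω, x))) (by simpa using mul_pos hκ h0) _
    (hF.comp (hb.comp measurable_prodMk_left)), Real.coe_toNNReal _ (mul_pos hκ h0).le]
  refine lintegral_congr fun x => ?_
  congr 3
  field_simp

end Crest.Agent.R162.W
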