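import Crest.Agent.R162.W.Ch

/-!
# Row 162, block W: strong Markov property, the law of the driving function
-/

set_option autoImplicit false

open scoped ENNReal NNReal Topology
open Set Filter MeasureTheory Metric ProbabilityTheory

noncomputable section
namespace Crest.Agent.R162.W

variable {κ : ℝ} {μ : Measure Path}

theorem measurable_spl {τ : Path → ℝ} (hτ : Measurable τ) :
    Measurable fun p : Path × Path => spl (τ p.1) p.1 p.2 :=
  continuous_spl.measurable.comp ((hτ.comp measurable_fst).prodMk measurable_id)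

theorem markov_nat [IsProbabilityMeasure μ]
    (h : ∀ t, 0 ≤ t → MeasurePreserving (fun p : Path × Path => spl t p.1 p.2) (μ.prod μ) μ)
    {N : Path → ℕ} (hN : Measurable N) {q : ℕ → ℝ} (hq : ∀ k, 0 ≤ q k)
    (ha : ∀ ω ω', Agr (q (N ω)) ω ω' → N ω' = N ω) :
    MeasurePreserving (fun p : Path × Path => spl (q (N p.1)) p.1 p.2) (μ.prod μ) μ := by
  have hm := measurable_spl (τ := fun ω => q (N ω)) (measurable_from_nat.comp hN)
  refine ⟨hm, Measure.ext fun S hS => ?_⟩
  have hk : ∀ k, MeasurableSet (S ∩ N ⁻¹' {k}) := fun k => hS.inter (hN (measurableSet_singleton k))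
  have hd : Pairwise (Function.onFun Disjoint fun k => S ∩ N ⁻¹' {k}) := fun k l hkl =>
    Set.disjoint_left.2 fun ω h1 h2 => hkl (h1.2.symm.trans h2.2)
  have e : S = ⋃ k, S ∩ N ⁻¹' {k} := by
    rw [← inter_iUnion, ← preimage_iUnion, iUnion_of_singleton, preimage_univ, inter_univ]
  rw [e, measure_iUnion hd hk, measure_iUnion hd hk]
  refine tsum_congr fun k => ?_
  rw [Measure.map_apply hm (hk k), ← (h (q k) (hq k)).measure_preimage (hk k).nullMeasurableSet]
  congr 1
  ext p
  simp only [mem_preimage, mem_inter_iff, mem_singleton_iff]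
  rw [ha _ _ (agr_spl _ p.1 p.2)]
  constructor
  · rintro ⟨h1, rfl⟩
    exact ⟨h1, ha _ _ (agr_spl _ p.1 p.2)⟩
  · rintro ⟨h1, h2⟩
    have h3 : N p.1 = k := by
      rw [← h2]
      exact ha _ _ fun s hs => (agr_spl (q k) p.1 p.2 s (h2 ▸ hs)).symm
    exact ⟨h3 ▸ h1, h3⟩

theorem markov_stop [IsProbabilityMeasure μ]
    (h : ∀ t, 0 ≤ t → MeasurePreserving (fun p : Path × Path => spl t p.1 p.2) (μ.prod μ) μ)
    {τ : Path → ℝ} (hτ : Stop τ) :
    MeasurePreserving (fun p : Path × Path => spl (τ p.1) p.1 p.2) (μ.prod μ) μ := by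
  have hm := measurable_spl hτ.meas
  have := Measure.isProbabilityMeasure_map (μ := μ.prod μ) hm.aemeasurable
  refine ⟨hm, ext_of_forall_integral_eq_of_IsFiniteMeasure fun f => ?_⟩
  have hn : ∀ n : ℕ, MeasurePreserving (fun p : Path × Path =>
      spl ((⌈((n : ℝ) + 1) * τ p.1⌉₊ : ℝ) / ((n : ℝ) + 1)) p.1 p.2) (μ.prod μ) μ := fun n =>
    markov_nat h (N := fun ω => ⌈((n : ℝ) + 1) * τ ω⌉₊) (hτ.meas.const_mul _).nat_ceil
      (q := fun k => (k : ℝ) / ((n : ℝ) + 1)) (fun k => by positivity) fun ω ω' ha => by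
        have : τ ω ≤ (⌈((n : ℝ) + 1) * τ ω⌉₊ : ℝ) / ((n : ℝ) + 1) := by
          rw [le_div_iff₀' (by positivity)]; exact Nat.le_ceil _
        rw [hτ.agr ω ω' fun s hs => ha s (hs.trans this)]
  have lim : Tendsto (fun n : ℕ => ∫ p : Path × Path,
      f (spl ((⌈((n : ℝ) + 1) * τ p.1⌉₊ : ℝ) / ((n : ℝ) + 1)) p.1 p.2) ∂μ.prod μ) atTop
      (𝓝 (∫ p : Path × Path, f (spl (τ p.1) p.1 p.2) ∂μ.prod μ)) := by
    refine tendsto_integral_of_dominated_convergence (fun _ => ‖f‖)
      (fun n => (f.continuous.measurable.comp (hn n).measurable).aestronglyMeasurable) (integrable_const _)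
      (fun n => Eventually.of_forall fun p => f.norm_coe_le_norm _) (Eventually.of_forall fun p => ?_)
    have h1 : Tendsto (fun n : ℕ => (⌈((n : ℝ) + 1) * τ p.1⌉₊ : ℝ) / ((n : ℝ) + 1)) atTop (𝓝 (τ p.1)) := by
      have h2 : Tendsto (fun n : ℕ => τ p.1 + 1 / ((n : ℝ) + 1)) atTop (𝓝 (τ p.1)) := by
        simpa using tendsto_one_div_add_atTop_nhds_zero_nat.const_add (τ p.1)
      refine tendsto_of_tendsto_of_tendsto_of_le_of_le tendsto_const_nhds h2 (fun n => ?_) fun n => ?_
      · rw [le_div_iff₀' (by positivity)]; exact Nat.le_ceil _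
      · have := Nat.ceil_lt_add_one (mul_nonneg (by positivity : (0 : ℝ) ≤ (n : ℝ) + 1) (hτ.nonneg p.1))
        rw [div_le_iff₀' (by positivity), mul_add, mul_one_div_cancel (by positivity)]
        exact this.le
    exact ((f.continuous.comp (continuous_spl.comp (continuous_id.prodMk
      (continuous_const (y := p))))).tendsto _).comp h1
  have e : ∀ n : ℕ, ∫ p : Path × Path,
      f (spl ((⌈((n : ℝ) + 1) * τ p.1⌉₊ : ℝ) / ((n : ℝ) + 1)) p.1 p.2) ∂μ.prod μ = ∫ ω, f ω ∂μ := fun n => by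
    rw [← integral_map (hn n).measurable.aemeasurable f.continuous.aestronglyMeasurable, (hn n).map_eq]
  simp only [e] at lim
  rw [integral_map hm.aemeasurable f.continuous.aestronglyMeasurable]
  exact tendsto_nhds_unique lim tendsto_const_nhds

theorem Ch.wie [IsProbabilityMeasure μ] (hκ : 0 < κ) (hμ : Ch κ μ) (h0 : ∀ᵐ ω ∂μ, ∀ t, t ≤ 0 → ω t = 0) :
    Wie κ μ where
  prob := inferInstance
  zero := h0
  law := fun _ h => hμ.law hκ.le h
  markov := fun _ hτ => markov_stop (fun _ ht => hμ.markov (h0.mono fun _ h => h 0 le_rfl) ht) hτ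
  scale := fun _ hc => hμ.scale hc
  cm := hμ.cm hκ

theorem char_driving {Ω : Type*} [MeasurableSpace Ω] {P : Measure Ω} [IsProbabilityMeasure P] (hκ : 0 < κ)
    {B : ℝ≥0 → Ω → ℝ} (hB : IsPreBrownianReal B P) (a : ℝ →₀ ℝ) :
    ∫ ω, Complex.exp ((lin a (Crest.ProbabilityR.Loewner.driving κ B ω) : ℝ) * Complex.I) ∂P =
      Complex.exp ((-(κ * QQ a / 2) : ℝ)) := by
  have hG : IsGaussianProcess (fun t ω => (a t * Real.sqrt κ) • (B ∘ Real.toNNReal) t ω) P :=
    (hB.isGaussianProcess.comp_right Real.toNNReal).smul _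
  have hX := hG.hasGaussianLaw_fun_sum (I := a.support)
  simp only [Function.comp, smul_eq_mul] at hX
  have e : ∀ ω, lin a (Crest.ProbabilityR.Loewner.driving κ B ω) =
      ∑ t ∈ a.support, a t * Real.sqrt κ * B t.toNNReal ω := fun ω =>
    Finset.sum_congr rfl fun t _ => (mul_assoc _ _ _).symm
  have h2 : ∀ t : ℝ, MemLp (fun ω => a t * Real.sqrt κ * B t.toNNReal ω) 2 P := fun t =>
    (hB.isGaussianProcess.hasGaussianLaw_eval _).memLp_two.const_mul _
  have hE : ∫ ω, ∑ t ∈ a.support, a t * Real.sqrt κ * B t.toNNReal ω ∂P = 0 := by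
    rw [integral_finsetSum _ fun t _ => (h2 t).integrable one_le_two]
    exact Finset.sum_eq_zero fun t _ => by rw [integral_const_mul, hB.integral_eval, mul_zero]
  have hV : Var[fun ω => ∑ t ∈ a.support, a t * Real.sqrt κ * B t.toNNReal ω; P] = κ * QQ a := by
    rw [← covariance_self hX.aemeasurable, covariance_fun_sum_fun_sum' (fun t _ => h2 t) (fun t _ => h2 t), QQ,
      lin_eq, Finset.mul_sum]
    refine Finset.sum_congr rfl fun s _ => ?_
    rw [lin_eq, Finset.mul_sum, Finset.mul_sum]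
    refine Finset.sum_congr rfl fun t _ => ?_
    rw [covariance_const_mul_left, covariance_const_mul_right, hB.covariance_eval, KK]
    push_cast
    rw [Real.coe_toNNReal', Real.coe_toNNReal']
    linear_combination (a s * a t * min (max s 0) (max t 0)) * Real.mul_self_sqrt hκ.le
  have hc := charFun_gaussianReal (μ := 0) (v := (κ * QQ a).toNNReal) 1
  rw [← hE, ← hV, ← hX.map_eq_gaussianReal, charFun_apply_real, integral_map hX.aemeasurable (by fun_prop),
    Real.coe_toNNReal _ (variance_nonneg _ _), hE, hV] at hc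
  simp only [e]
  simpa [neg_div] using hc

theorem exists_wie {Ω : Type*} [MeasurableSpace Ω] (P : Measure Ω) [IsProbabilityMeasure P] (hκ : 0 < κ)
    (B : ℝ≥0 → Ω → ℝ) (hB : IsBrownianReal B P) :
    ∃ W : Ω → Path, AEMeasurable W P ∧
      (∀ᵐ ω ∂P, (W ω : ℝ → ℝ) = Crest.ProbabilityR.Loewner.driving κ B ω) ∧ Wie κ (P.map W) := by
  classical
  let W : Ω → Path := fun ω => if h : Continuous (Crest.ProbabilityR.Loewner.driving κ B ω) then ⟨_, h⟩ else 0
  have h1 : ∀ᵐ ω ∂P, (W ω : ℝ → ℝ) = Crest.ProbabilityR.Loewner.driving κ B ω := by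
    filter_upwards [hB.cont] with ω h
    have : Continuous (Crest.ProbabilityR.Loewner.driving κ B ω) :=
      continuous_const.mul (h.comp continuous_real_toNNReal)
    simp only [W, dif_pos this]
    rfl
  have h2 : AEMeasurable W P := aemeasurable_path fun t =>
    ((hB.aemeasurable t.toNNReal).const_mul (Real.sqrt κ)).congr (h1.mono fun ω h => (congrFun h t).symm)
  have := Measure.isProbabilityMeasure_map h2
  refine ⟨W, h2, h1, Ch.wie hκ (Ch.map_of h2 fun a => ?_) ?_⟩
  · rw [← char_driving hκ hB.toIsPreBrownianReal a]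
    exact integral_congr_ae (h1.mono fun ω h => by simp only [ee, h])
  · have hc : IsClosed {ω : Path | ∀ t, t ≤ 0 → ω t = 0} := by
      simp only [Set.ofPred_forall]
      exact isClosed_iInter fun t => isClosed_iInter fun _ => isClosed_eq (by fun_prop) continuous_const
    rw [ae_map_iff h2 hc.measurableSet]
    filter_upwards [h1, hB.eval_zero_ae_eq_zero] with ω h h0 t ht
    rw [h, Crest.ProbabilityR.Loewner.driving, Real.toNNReal_of_nonpos ht, h0, mul_zero]

end Crest.Agent.R162.W
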